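import Vale.Agent.L1Bass.Functional

/-! Passage from the group ring to absolutely summable functions. -/

set_option linter.unusedSectionVars false

namespace Vale.Agent.L1Bass

open Finset

variable {G : Type*} [Group G] {A : Type*} [NormedRing A]

/-- reindexing of pairs -/
def pairEquiv (G : Type*) [Group G] : G × G ≃ G × G where
  toFun p := (p.2, p.2⁻¹ * p.1)
  invFun p := (p.1 * p.2, p.1)
  left_inv p := by simp
  right_inv p := by simp

lemma summable_conv {u v : G → ℝ} (hu : Summable u) (hv : Summable v) (hu0 : ∀ g, 0 ≤ u g)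
    (hv0 : ∀ g, 0 ≤ v g) : Summable fun p : G × G => u p.2 * v (p.2⁻¹ * p.1) := by
  have h := hu.mul_of_nonneg hv hu0 hv0
  exact (pairEquiv G).summable_iff.2 h

lemma summable_conv_fst {u v : G → ℝ} (hu : Summable u) (hv : Summable v) (hu0 : ∀ g, 0 ≤ u g)
    (hv0 : ∀ g, 0 ≤ v g) (g : G) : Summable fun h => u h * v (h⁻¹ * g) :=
  (summable_conv hu hv hu0 hv0).prod_factor g

lemma summable_conv_snd {u v : G → ℝ} (hu : Summable u) (hv : Summable v) (hu0 : ∀ g, 0 ≤ u g)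
    (hv0 : ∀ g, 0 ≤ v g) : Summable fun g => ∑' h, u h * v (h⁻¹ * g) :=
  (summable_conv hu hv hu0 hv0).prod

lemma tsum_conv {u v : G → ℝ} (hu : Summable u) (hv : Summable v) (hu0 : ∀ g, 0 ≤ u g)
    (hv0 : ∀ g, 0 ≤ v g) : ∑' g, ∑' h, u h * v (h⁻¹ * g) = (∑' g, u g) * ∑' g, v g := by
  have h1 := (summable_conv hu hv hu0 hv0).tsum_prod
  have h2 : ∑' p : G × G, u p.2 * v (p.2⁻¹ * p.1) = ∑' p : G × G, u p.1 * v p.2 :=
    (pairEquiv G).tsum_eq (fun p : G × G => u p.1 * v p.2)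
  have h3 := hu.tsum_mul_tsum hv (hu.mul_of_nonneg hv hu0 hv0)
  rw [h3, ← h2, h1]

/-- truncation -/
noncomputable def trunc (e : G → A) (F : Finset G) : MonoidAlgebra A G :=
  MonoidAlgebra.ofCoeff (Finsupp.indicator F fun g _ => e g)

lemma coeff_trunc [DecidableEq G] (e : G → A) (F : Finset G) (g : G) :
    (trunc e F).coeff g = if g ∈ F then e g else 0 := by
  simp only [trunc, MonoidAlgebra.coeff_ofCoeff]
  by_cases h : g ∈ F
  · rw [Finsupp.indicator_of_mem h, if_pos h]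
  · rw [Finsupp.indicator_of_notMem h, if_neg h]

lemma exists_trunc {e : G → A} (he : Summable fun g => ‖e g‖) {ε : ℝ} (hε : 0 < ε) :
    ∃ a : MonoidAlgebra A G, Summable (fun g => ‖a.coeff g - e g‖) ∧
      ∑' g, ‖a.coeff g - e g‖ ≤ ε ∧ nrm a ≤ ∑' g, ‖e g‖ := by
  classical
  obtain ⟨F, hF⟩ := (Metric.tendsto_atTop.1 he.hasSum) ε hε
  have hF := hF F le_rfl
  refine ⟨trunc e F, ?_, ?_, ?_⟩
  · have : (fun g => ‖(trunc e F).coeff g - e g‖) = fun g => ‖e g‖ - if g ∈ F then ‖e g‖ else 0 := by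
      funext g; rw [coeff_trunc]; split_ifs <;> simp
    rw [this]
    exact he.sub (summable_of_ne_finset_zero (s := F) (by intro b hb; simp [hb]))
  · have h1 : (fun g => ‖(trunc e F).coeff g - e g‖) =
        fun g => ‖e g‖ - if g ∈ F then ‖e g‖ else 0 := by
      funext g; rw [coeff_trunc]; split_ifs <;> simp
    have hs : Summable fun g => if g ∈ F then ‖e g‖ else 0 :=
      summable_of_ne_finset_zero (s := F) (by intro b hb; simp [hb])
    have h2 : ∑' g, (if g ∈ F then ‖e g‖ else 0) = ∑ g ∈ F, ‖e g‖ := by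
      rw [tsum_eq_sum (s := F) (by intro b hb; simp [hb])]
      exact Finset.sum_congr rfl fun g hg => by simp [hg]
    rw [h1, he.tsum_sub hs, h2]
    rw [Real.dist_eq, abs_sub_comm] at hF
    exact (le_abs_self _).trans hF.le
  · have h1 : nrm (trunc e F) = ∑ g ∈ F, ‖e g‖ := by
      rw [nrm_eq_sum (s := F)]
      · exact Finset.sum_congr rfl fun g hg => by rw [coeff_trunc]; simp [hg]
      · intro g hg
        rw [Finsupp.mem_support_iff, coeff_trunc] at hg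
        by_contra h
        exact hg (if_neg h)
    rw [h1]
    exact he.sum_le_tsum F fun _ _ => norm_nonneg _

lemma summable_norm_coeff (a : MonoidAlgebra A G) : Summable fun g => ‖a.coeff g‖ :=
  summable_of_ne_finset_zero (s := a.coeff.support) (by intro b hb; simpa using hb)

lemma tsum_norm_coeff (a : MonoidAlgebra A G) : ∑' g, ‖a.coeff g‖ = nrm a := by
  rw [tsum_eq_sum (s := a.coeff.support) (by intro b hb; simpa using hb)]
  rfl

lemma norm_conv_sub_le [CompleteSpace A] {a e : G → A} (ha : Summable fun g => ‖a g‖)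
    (he : Summable fun g => ‖e g‖) (hd : Summable fun g => ‖a g - e g‖) (g : G) :
    ‖∑' h, a h * a (h⁻¹ * g) - ∑' h, e h * e (h⁻¹ * g)‖ ≤
      ∑' h, ‖a h - e h‖ * ‖a (h⁻¹ * g)‖ + ∑' h, ‖e h‖ * ‖a (h⁻¹ * g) - e (h⁻¹ * g)‖ := by
  have n1 : ∀ g : G, 0 ≤ ‖a g‖ := fun g => norm_nonneg _
  have n2 : ∀ g : G, 0 ≤ ‖e g‖ := fun g => norm_nonneg _
  have n3 : ∀ g : G, 0 ≤ ‖a g - e g‖ := fun g => norm_nonneg _
  have s1 := summable_conv_fst ha ha n1 n1 g
  have s2 := summable_conv_fst he he n2 n2 g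
  have s3 := summable_conv_fst hd ha n3 n1 g
  have s4 := summable_conv_fst he hd n2 n3 g
  have t1 : Summable fun h => a h * a (h⁻¹ * g) :=
    Summable.of_norm_bounded s1 fun h => norm_mul_le _ _
  have t2 : Summable fun h => e h * e (h⁻¹ * g) :=
    Summable.of_norm_bounded s2 fun h => norm_mul_le _ _
  rw [← t1.tsum_sub t2, ← s3.tsum_add s4]
  have hb : ∀ h, ‖a h * a (h⁻¹ * g) - e h * e (h⁻¹ * g)‖ ≤
      ‖a h - e h‖ * ‖a (h⁻¹ * g)‖ + ‖e h‖ * ‖a (h⁻¹ * g) - e (h⁻¹ * g)‖ := by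
    intro h
    have : a h * a (h⁻¹ * g) - e h * e (h⁻¹ * g) =
        (a h - e h) * a (h⁻¹ * g) + e h * (a (h⁻¹ * g) - e (h⁻¹ * g)) := by noncomm_ring
    rw [this]
    exact (norm_add_le _ _).trans (add_le_add (norm_mul_le _ _) (norm_mul_le _ _))
  exact tsum_of_norm_bounded (s3.add s4).hasSum hb

lemma coeff_mul_eq_tsum (a b : MonoidAlgebra A G) (g : G) :
    (a * b).coeff g = ∑' h, a.coeff h * b.coeff (h⁻¹ * g) := by
  rw [MonoidAlgebra.coeff_mul_apply_left, tsum_eq_sum (s := a.coeff.support)]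
  · rfl
  · intro h hh
    rw [Finsupp.notMem_support_iff.1 hh, zero_mul]

lemma exists_almost_idempotent [CompleteSpace A] {e : G → A} (he : Summable fun g => ‖e g‖)
    (hid : ∀ g, e g = ∑' h, e h * e (h⁻¹ * g)) {ε : ℝ} (hε : 0 < ε) :
    ∃ a : MonoidAlgebra A G, Summable (fun g => ‖a.coeff g - e g‖) ∧
      ∑' g, ‖a.coeff g - e g‖ ≤ ε ∧ nrm a ≤ ∑' g, ‖e g‖ ∧
      nrm (defect a) ≤ (2 * ∑' g, ‖e g‖ + 1) * ε := by
  obtain ⟨a, hs, hε', hn⟩ := exists_trunc he hε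
  refine ⟨a, hs, hε', hn, ?_⟩
  have ha := summable_norm_coeff a
  have n1 : ∀ g : G, 0 ≤ ‖a.coeff g‖ := fun g => norm_nonneg _
  have n2 : ∀ g : G, 0 ≤ ‖e g‖ := fun g => norm_nonneg _
  have n3 : ∀ g : G, 0 ≤ ‖a.coeff g - e g‖ := fun g => norm_nonneg _
  have s3 := summable_conv_snd hs ha n3 n1
  have s4 := summable_conv_snd he hs n2 n3
  have c3 := tsum_conv hs ha n3 n1
  have c4 := tsum_conv he hs n2 n3
  have hb : ∀ g, ‖(defect a).coeff g‖ ≤
      (∑' h, ‖a.coeff h - e h‖ * ‖a.coeff (h⁻¹ * g)‖ +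
        ∑' h, ‖e h‖ * ‖a.coeff (h⁻¹ * g) - e (h⁻¹ * g)‖) + ‖a.coeff g - e g‖ := by
    intro g
    have h1 : (defect a).coeff g = ((∑' h, a.coeff h * a.coeff (h⁻¹ * g)) -
        ∑' h, e h * e (h⁻¹ * g)) - (a.coeff g - e g) := by
      rw [← hid g, ← coeff_mul_eq_tsum]
      unfold defect
      rw [MonoidAlgebra.coeff_sub, Finsupp.sub_apply]
      abel
    rw [h1]
    exact (norm_sub_le _ _).trans (add_le_add (norm_conv_sub_le ha he hs g) le_rfl)
  rw [← tsum_norm_coeff]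
  have hsum := (s3.add s4).add hs
  have h1 : ∑' g, ‖(defect a).coeff g‖ ≤ ∑' g, ((∑' h, ‖a.coeff h - e h‖ * ‖a.coeff (h⁻¹ * g)‖ +
        ∑' h, ‖e h‖ * ‖a.coeff (h⁻¹ * g) - e (h⁻¹ * g)‖) + ‖a.coeff g - e g‖) :=
    (summable_norm_coeff _).tsum_le_tsum hb hsum
  refine h1.trans ?_
  rw [(s3.add s4).tsum_add hs, s3.tsum_add s4, c3, c4, tsum_norm_coeff]
  have hN : 0 ≤ ∑' g, ‖e g‖ := tsum_nonneg n2
  have hD : 0 ≤ ∑' g, ‖a.coeff g - e g‖ := tsum_nonneg n3
  have ha0 := nrm_nonneg a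
  nlinarith

/-- the core vanishing theorem -/
theorem tsum_eq_zero [CompleteSpace A] {tr : A →+ ℂ} {t : G → ℂ} {k : G → G → ℂ} {L : G → ℝ}
    (htr : ∀ u v : A, tr (u * v) = tr (v * u))
    (h1 : ∀ y z, t (y * z) = k z y + k y z)
    (h2 : ∀ x y z, k x (y * z) = k (z * x) y + k (x * y) z)
    {Ct τ : ℝ} (hCt : 0 ≤ Ct) (hτ : 0 ≤ τ) (hC : ∀ u, ‖tr u‖ ≤ Ct * ‖u‖)
    (ht : ∀ x, ‖t x‖ ≤ τ) (hL0 : ∀ x, 0 ≤ L x) (hL : ∀ x y, L (x * y) ≤ L x + L y) {m : ℕ}
    (hk : ∀ x y, ‖k x y‖ ≤ (1 + L x + L y) ^ m)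
    {e : G → A} (he : Summable fun g => ‖e g‖) (hid : ∀ g, e g = ∑' h, e h * e (h⁻¹ * g)) :
    ∑' g, t g * tr (e g) = 0 := by
  set N := ∑' g, ‖e g‖ with hN
  have hN0 : 0 ≤ N := tsum_nonneg fun _ => norm_nonneg _
  have h3m : (1 : ℝ) ≤ 3 ^ m := one_le_pow₀ (by norm_num)
  -- the main inequality for small ε
  set K : ℝ := τ * Ct + 2 * τ * Ct * (3 + 2 * N) * (2 * N + 1) with hK
  have hK0 : 0 ≤ K := by positivity
  set ε₀ : ℝ := 1 / (14 * 3 ^ m * (3 + 2 * N) * (2 * N + 1)) with hε₀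
  have hε₀0 : 0 < ε₀ := by positivity
  have main : ∀ ε, 0 < ε → ε ≤ ε₀ → ‖∑' g, t g * tr (e g)‖ ≤ K * ε := by
    intro ε hε hεε
    obtain ⟨a, hs, ha1, ha2, ha3⟩ := exists_almost_idempotent he hid hε
    have hd0 := nrm_nonneg (defect a)
    have ha0 := nrm_nonneg a
    have hε1 : 14 * 3 ^ m * (3 + 2 * N) * (2 * N + 1) * ε ≤ 1 := by
      rw [hε₀, le_div_iff₀ (by positivity)] at hεε
      linarith
    have hd1 : 14 * 3 ^ m * (3 + 2 * N) * nrm (defect a) ≤ 1 := by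
      calc _ ≤ 14 * 3 ^ m * (3 + 2 * N) * ((2 * N + 1) * ε) := by gcongr
        _ = 14 * 3 ^ m * (3 + 2 * N) * (2 * N + 1) * ε := by ring
        _ ≤ 1 := hε1
    have hd2 : 14 * 3 ^ m * nrm (defect a) ≤ 1 := by
      refine le_trans ?_ hd1
      have : 0 ≤ 14 * (3 : ℝ) ^ m * nrm (defect a) := by positivity
      nlinarith
    have hd3 : 2 * nrm (defect a) * (3 + 2 * nrm a) ≤ 1 := by
      refine le_trans ?_ hd1
      have e1 : 2 * nrm (defect a) * (3 + 2 * nrm a) ≤ 2 * nrm (defect a) * (3 + 2 * N) := by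
        gcongr
      have e2 : 0 ≤ nrm (defect a) * (3 + 2 * N) := by positivity
      nlinarith
    have hA := norm_fT_le_defect htr h1 h2 hCt hτ hC ht hL0 hL hk a hd2 hd3
    have hA' : ‖fT tr t a‖ ≤ 2 * τ * Ct * (3 + 2 * N) * (2 * N + 1) * ε := by
      refine hA.trans ?_
      calc _ ≤ 2 * τ * Ct * (3 + 2 * N) * ((2 * N + 1) * ε) := by gcongr
        _ = _ := by ring
    -- compare
    have hfT : fT tr t a = ∑' g, t g * tr (a.coeff g) := by
      rw [tsum_eq_sum (s := a.coeff.support)]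
      · rfl
      · intro b hb
        rw [Finsupp.notMem_support_iff.1 hb, map_zero, mul_zero]
    have hb1 : ∀ g, ‖t g * tr (a.coeff g)‖ ≤ τ * Ct * ‖a.coeff g‖ := fun g => by
      rw [norm_mul, mul_assoc]
      exact mul_le_mul (ht g) (hC _) (norm_nonneg _) hτ
    have hb2 : ∀ g, ‖t g * tr (e g)‖ ≤ τ * Ct * ‖e g‖ := fun g => by
      rw [norm_mul, mul_assoc]
      exact mul_le_mul (ht g) (hC _) (norm_nonneg _) hτ
    have sa : Summable fun g => t g * tr (a.coeff g) :=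
      Summable.of_norm_bounded ((summable_norm_coeff a).mul_left _) hb1
    have se : Summable fun g => t g * tr (e g) :=
      Summable.of_norm_bounded (he.mul_left _) hb2
    have hdiff : ‖∑' g, t g * tr (e g) - fT tr t a‖ ≤ τ * Ct * ε := by
      rw [hfT, norm_sub_rev, ← sa.tsum_sub se]
      have hb3 : ∀ g, ‖t g * tr (a.coeff g) - t g * tr (e g)‖ ≤
          τ * Ct * ‖a.coeff g - e g‖ := fun g => by
        rw [← mul_sub, ← map_sub, norm_mul, mul_assoc]
        exact mul_le_mul (ht g) (hC _) (norm_nonneg _) hτ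
      refine (tsum_of_norm_bounded (hs.mul_left (τ * Ct)).hasSum hb3).trans ?_
      rw [tsum_mul_left]
      gcongr
    calc ‖∑' g, t g * tr (e g)‖ = ‖(∑' g, t g * tr (e g) - fT tr t a) + fT tr t a‖ := by
          congr 1; ring
      _ ≤ τ * Ct * ε + 2 * τ * Ct * (3 + 2 * N) * (2 * N + 1) * ε :=
          (norm_add_le _ _).trans (add_le_add hdiff hA')
      _ = K * ε := by rw [hK]; ring
  by_contra hne
  have hpos : 0 < ‖∑' g, t g * tr (e g)‖ := norm_pos_iff.2 hne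
  set η := ‖∑' g, t g * tr (e g)‖ with hη
  set ε := min ε₀ (η / (2 * (K + 1))) with hεdef
  have hε : 0 < ε := lt_min hε₀0 (by positivity)
  have h3 := main ε hε (min_le_left _ _)
  have h4 : K * ε ≤ K * (η / (2 * (K + 1))) := by
    gcongr
    exact min_le_right _ _
  have h5 : K * (η / (2 * (K + 1))) < η := by
    rw [mul_div_assoc', div_lt_iff₀ (by positivity)]
    nlinarith
  linarith

end Vale.Agent.L1Bass
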