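import Vale.Agent.L1Bass.Matrix

/-! Assembling the vanishing theorem, and examples of spaces satisfying the inequality. -/

set_option linter.unusedSectionVars false

namespace Vale.Agent.L1Bass

open Filter Topology

lemma quad_of_bruhatTits {X : Type*} [PseudoMetricSpace X]
    (h : ∀ x y : X, ∃ m : X, ∀ z, dist z m ^ 2 ≤ (dist z x ^ 2 + dist z y ^ 2) / 2 - dist x y ^ 2 / 4)
    (a b c d : X) : br a b c d ≤ 1 * (dist a b ^ 2 + dist c d ^ 2) := by
  obtain ⟨m, hm⟩ := h a d
  have h1 := hm b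
  have h2 := hm c
  have h3 := dist_triangle b m c
  have h4 : dist b c ^ 2 ≤ 2 * dist b m ^ 2 + 2 * dist c m ^ 2 := by
    rw [dist_comm m c] at h3
    have : dist b c ^ 2 ≤ (dist b m + dist c m) ^ 2 := pow_le_pow_left₀ dist_nonneg h3 2
    nlinarith [sq_nonneg (dist b m - dist c m)]
  unfold br
  rw [dist_comm b a] at h1
  rw [dist_comm c a] at h2
  linarith

lemma quad_of_fourPoint {X : Type*} [PseudoMetricSpace X]
    (h : ∀ a b c d : X, dist a c + dist b d ≤ max (dist a b + dist c d) (dist a d + dist b c))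
    (a b c d : X) : br a b c d ≤ 1 * (dist a b ^ 2 + dist c d ^ 2) := by
  unfold br
  rw [one_mul]
  have s1 := h a b d c
  have s2 := h a c b d
  have s3 := h a b c d
  have hcb := dist_comm c b
  have hdc := dist_comm d c
  have hdb := dist_comm d b
  have hba := dist_comm b a
  have hca := dist_comm c a
  have hda := dist_comm d a
  rw [hdc] at s1
  rw [hcb] at s2
  have t1 := dist_triangle a c d
  have t2 := dist_triangle a d c
  have t3 := dist_triangle a b d
  have t4 := dist_triangle b a d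
  have t5 := dist_triangle c a d
  rw [hdc] at t2
  rw [hba] at t4
  rw [hca] at t5
  have t6 := dist_triangle a d b
  rw [hdb] at t6
  have n1 : 0 ≤ dist a b := dist_nonneg
  have n2 : 0 ≤ dist a c := dist_nonneg
  have n3 : 0 ≤ dist a d := dist_nonneg
  have n4 : 0 ≤ dist b c := dist_nonneg
  have n5 : 0 ≤ dist b d := dist_nonneg
  have n6 : 0 ≤ dist c d := dist_nonneg
  generalize dist a b = ab at *
  generalize dist a c = ac at *
  generalize dist a d = ad at *
  generalize dist b c = bc at *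
  generalize dist b d = bd at *
  generalize dist c d = cd at *
  clear h hcb hdc hdb hba hca hda
  by_cases hP : ad + bc ≤ ab + cd
  · by_cases hQ : ad + bc ≤ ac + bd
    · have e1 : (ad + bc) ^ 2 ≤ (ab + cd) ^ 2 := pow_le_pow_left₀ (by positivity) hP 2
      have e2 : (ad + bc) ^ 2 ≤ (ac + bd) ^ 2 := pow_le_pow_left₀ (by positivity) hQ 2
      nlinarith [sq_nonneg (ab - cd), sq_nonneg (ac - bd), mul_nonneg n3 n4]
    · have e1 : ab + cd = ad + bc := by
        refine le_antisymm ?_ hP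
        rcases le_max_iff.1 s2 with h | h <;> linarith
      have e2 : ad ^ 2 + bc ^ 2 - ab ^ 2 - cd ^ 2 = 2 * ((ad - ab) * (ad - cd)) := by
        have : bc = ab + cd - ad := by linarith
        rw [this]; ring
      have e3 : (ad - ab) ^ 2 ≤ bd ^ 2 := by
        exact sq_le_sq' (by linarith) (by linarith)
      have e4 : (ad - cd) ^ 2 ≤ ac ^ 2 := by
        exact sq_le_sq' (by linarith) (by linarith)
      nlinarith [sq_nonneg ((ad - ab) - (ad - cd))]
  · have e0 : ad + bc ≤ ac + bd := by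
      rcases le_max_iff.1 s1 with h | h <;> linarith
    have e1 : ac + bd = ad + bc := by
      refine le_antisymm ?_ e0
      rcases le_max_iff.1 s3 with h | h <;> linarith
    have e2 : ad ^ 2 + bc ^ 2 - ac ^ 2 - bd ^ 2 = 2 * ((ad - ac) * (ad - bd)) := by
      have : bc = ac + bd - ad := by linarith
      rw [this]; ring
    have e3 : (ad - ac) ^ 2 ≤ cd ^ 2 := by
      exact sq_le_sq' (by linarith) (by linarith)
    have e4 : (ad - bd) ^ 2 ≤ ab ^ 2 := by
      exact sq_le_sq' (by linarith) (by linarith)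
    nlinarith [sq_nonneg ((ad - ac) - (ad - bd))]

/-- vanishing for an isometric action with positive translation length -/
theorem vanish_of_action {G : Type*} [Group G] {X : Type*} [PseudoMetricSpace X] [MulAction G X]
    [IsIsometricSMul G X] {K : ℝ}
    (hQ : ∀ a b c d : X, br a b c d ≤ K * (dist a b ^ 2 + dist c d ^ 2))
    (g : G) (v : X) {κ : ℝ} (hκ : 0 < κ) (hg : ∀ n : ℕ, κ * n ≤ dist v (g ^ n • v))
    {q : ℕ} {e : Fin q → Fin q → G → ℂ} (he : ∀ i j, Summable fun g => ‖e i j g‖)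
    (hid : ∀ i j g, ∑ k, ∑' h, e i k h * e k j (h⁻¹ * g) = e i j g) :
    ∑' x : (ConjClasses.mk g).carrier, ∑ i, e i i x = 0 := by
  -- replace K by a nonnegative constant
  set K' := max K 0 with hK'def
  have hK' : 0 ≤ K' := le_max_right _ _
  have hQ' : ∀ a b c d : X, br a b c d ≤ K' * (dist a b ^ 2 + dist c d ^ 2) := fun a b c d =>
    (hQ a b c d).trans (mul_le_mul_of_nonneg_right (le_max_left _ _) (by positivity))
  obtain ⟨U, hU, hS⟩ := exists_ultrafilter v g hκ hg
  have hκ0 : 0 < coc U v 1 g := lt_of_lt_of_le (by positivity) (coc_one_ge hQ' U hU v hK' g hS)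
  refine matrix_vanish (S := (ConjClasses.mk g).carrier) (c := fun x y => ((coc U v x y : ℝ) : ℂ))
    (κ := ((coc U v 1 g : ℝ) : ℂ)) ?_ ?_ ?_ ?_ (L := fun x => (1 + 2 * K') * dist v (x • v))
    ?_ ?_ (m := 2) ?_ he hid
  · intro x y
    rw [ConjClasses.mem_carrier_iff_mk_eq, ConjClasses.mem_carrier_iff_mk_eq]
    have : ConjClasses.mk (x * y) = ConjClasses.mk (y * x) := by
      rw [ConjClasses.mk_eq_mk_iff_isConj, isConj_iff]
      exact ⟨x⁻¹, by group⟩
    rw [this]
  · exact_mod_cast hκ0.ne'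
  · intro x hx
    rw [ConjClasses.mem_carrier_iff_mk_eq, ConjClasses.mk_eq_mk_iff_isConj, isConj_comm,
      isConj_iff] at hx
    obtain ⟨z, rfl⟩ := hx
    rw [coc_one_conj hQ' U hU v hK']
  · intro x y z _
    rw [coc_mul hQ' U hU v hK']
    push_cast
    rfl
  · intro x
    positivity
  · intro x y
    have : dist v ((x * y) • v) ≤ dist v (x • v) + dist v (y • v) := by
      refine (dist_triangle v (x • v) _).trans ?_
      rw [mul_smul, dist_smul]
    calc (1 + 2 * K') * dist v ((x * y) • v) ≤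
        (1 + 2 * K') * (dist v (x • v) + dist v (y • v)) := by gcongr
      _ = _ := by ring
  · intro x y _
    rw [Complex.norm_real, Real.norm_eq_abs]
    refine (abs_coc_le hQ' U hU v hK' x y).trans ?_
    have hx : 0 ≤ dist v (x • v) := dist_nonneg
    have hy : 0 ≤ dist v (y • v) := dist_nonneg
    set a := dist v (x • v)
    set b := dist v (y • v)
    have e1 : b ^ 2 ≤ (a + b) ^ 2 := pow_le_pow_left₀ hy (by linarith) 2
    have e2 : K' * (b ^ 2 + (a + b) ^ 2) ≤ 2 * K' * (a + b) ^ 2 := by nlinarith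
    have e3 : 2 * K' * (a + b) ^ 2 ≤ (1 + 2 * K') ^ 2 * (a + b) ^ 2 := by
      have : 2 * K' ≤ (1 + 2 * K') ^ 2 := by nlinarith
      gcongr
    have e4 : (1 + 2 * K') ^ 2 * (a + b) ^ 2 ≤ (1 + (1 + 2 * K') * a + (1 + 2 * K') * b) ^ 2 := by
      rw [← mul_pow]
      refine pow_le_pow_left₀ (by positivity) ?_ 2
      linarith
    linarith

/-! ### The induced action on a Euclidean space -/

section Induced

variable {G : Type*} [Group G] (H : Subgroup G) (φ : H →* Multiplicative ℝ)

/-- the element of `H` measuring the failure of the section to be equivariant -/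
noncomputable def etaH (g : G) (c : G ⧸ H) : H :=
  ⟨(g • c).out⁻¹ * (g * c.out), by
    rw [← QuotientGroup.eq, QuotientGroup.out_eq']
    have : ((g * c.out : G) : G ⧸ H) = g • ((c.out : G) : G ⧸ H) := rfl
    rw [this, QuotientGroup.out_eq']⟩

lemma etaH_mul (g g' : G) (c : G ⧸ H) : etaH H (g * g') c = etaH H g (g' • c) * etaH H g' c := by
  ext
  simp only [etaH, Subgroup.coe_mul, mul_smul]
  group

/-- real valued cocycle -/
noncomputable def psi (g : G) (c : G ⧸ H) : ℝ := Multiplicative.toAdd (φ (etaH H g c))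

lemma psi_mul (g g' : G) (c : G ⧸ H) : psi H φ (g * g') c = psi H φ g (g' • c) + psi H φ g' c := by
  rw [psi, etaH_mul, map_mul, toAdd_mul]; rfl

variable [Fintype (G ⧸ H)]

/-- the induced isometric action -/
@[instance_reducible] noncomputable def indAction : MulAction G (EuclideanSpace ℝ (G ⧸ H)) where
  smul g f := WithLp.toLp 2 fun c => f (g⁻¹ • c) + psi H φ g (g⁻¹ • c)
  one_smul f := by
    ext c
    show f ((1 : G)⁻¹ • c) + psi H φ 1 ((1 : G)⁻¹ • c) = f c
    have h := psi_mul H φ 1 1 c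
    rw [one_smul, mul_one] at h
    have h0 : psi H φ 1 c = 0 := by linarith
    rw [inv_one, one_smul, h0, add_zero]
  mul_smul g g' f := by
    ext c
    show f ((g * g')⁻¹ • c) + psi H φ (g * g') ((g * g')⁻¹ • c) =
      (f (g'⁻¹ • (g⁻¹ • c)) + psi H φ g' (g'⁻¹ • (g⁻¹ • c))) + psi H φ g (g⁻¹ • c)
    rw [psi_mul, mul_inv_rev, mul_smul, smul_inv_smul]
    ring

lemma ind_isometric : @IsIsometricSMul G (EuclideanSpace ℝ (G ⧸ H)) _ (indAction H φ).toSMul := by
  let _ := indAction H φ
  refine ⟨fun g => Isometry.of_dist_eq fun f f' => ?_⟩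
  rw [EuclideanSpace.dist_eq, EuclideanSpace.dist_eq]
  congr 1
  have : ∀ c, dist ((g • f) c) ((g • f') c) ^ 2 = dist (f (g⁻¹ • c)) (f' (g⁻¹ • c)) ^ 2 := by
    intro c
    show dist (f (g⁻¹ • c) + psi H φ g (g⁻¹ • c)) (f' (g⁻¹ • c) + psi H φ g (g⁻¹ • c)) ^ 2 = _
    rw [dist_add_right]
  simp only [this]
  exact Equiv.sum_comp (MulAction.toPerm g⁻¹ : Equiv.Perm (G ⧸ H))
    (fun c => dist (f c) (f' c) ^ 2)

lemma psi_one_coset (h : H) :
    psi H φ (h : G) ((1 : G) : G ⧸ H) = Multiplicative.toAdd (φ h) := by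
  have hmem : (((1 : G) : G ⧸ H)).out ∈ H := by
    have h1 : ((((1 : G) : G ⧸ H)).out : G ⧸ H) = ((1 : G) : G ⧸ H) := QuotientGroup.out_eq' _
    have h2 := QuotientGroup.eq.1 h1
    simpa using H.inv_mem h2
  have hsm : (h : G) • ((1 : G) : G ⧸ H) = ((1 : G) : G ⧸ H) := by
    show (((h : G) * 1 : G) : G ⧸ H) = _
    rw [QuotientGroup.eq]
    simp
  have : etaH H (h : G) ((1 : G) : G ⧸ H) =
      (⟨_, hmem⟩ : H)⁻¹ * (h * (⟨_, hmem⟩ : H)) := by
    ext
    simp only [etaH, hsm]
    rfl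
  rw [psi, this, map_mul φ, map_mul φ, map_inv φ, toAdd_mul, toAdd_mul, toAdd_inv]
  ring

lemma ind_growth (g : G) {m : ℕ} (hmem : g ^ m ∈ H) (n : ℕ) :
    |Multiplicative.toAdd (φ ⟨g ^ m, hmem⟩)| * n ≤
      dist (0 : EuclideanSpace ℝ (G ⧸ H))
        ((indAction H φ).toSMul.smul (g ^ (m * n)) (0 : EuclideanSpace ℝ (G ⧸ H))) := by
  rw [dist_zero_left]
  set h : H := ⟨g ^ m, hmem⟩ with hh
  have hpow : g ^ (m * n) = ((h ^ n : H) : G) := by
    rw [pow_mul]; rfl
  have hsm : (g ^ (m * n))⁻¹ • ((1 : G) : G ⧸ H) = ((1 : G) : G ⧸ H) := by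
    rw [inv_smul_eq_iff, hpow]
    show ((1 : G) : G ⧸ H) = ((((h ^ n : H) : G) * 1 : G) : G ⧸ H)
    rw [QuotientGroup.eq]
    simpa using H.pow_mem h.2 n
  have hval : ((indAction H φ).toSMul.smul (g ^ (m * n)) (0 : EuclideanSpace ℝ (G ⧸ H)))
      ((1 : G) : G ⧸ H) = n * Multiplicative.toAdd (φ h) := by
    show (0 : ℝ) + psi H φ (g ^ (m * n)) ((g ^ (m * n))⁻¹ • ((1 : G) : G ⧸ H)) = _
    rw [hsm, hpow, psi_one_coset, map_pow, toAdd_pow, zero_add, nsmul_eq_mul]
  have := PiLp.norm_apply_le ((indAction H φ).toSMul.smul (g ^ (m * n))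
    (0 : EuclideanSpace ℝ (G ⧸ H))) ((1 : G) : G ⧸ H)
  rw [hval, Real.norm_eq_abs, abs_mul, Nat.abs_cast] at this
  linarith

end Induced

lemma dist_pow_mul_le {G : Type*} [Group G] {X : Type*} [PseudoMetricSpace X] [MulAction G X]
    [IsIsometricSMul G X] (g : G) (v : X) (k : ℕ) : dist v (g ^ k • v) ≤ k * dist v (g • v) := by
  induction k with
  | zero => simp
  | succ k ih =>
    refine (dist_triangle v (g ^ k • v) _).trans ?_
    rw [pow_succ, mul_smul, dist_smul]
    push_cast
    linarith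

lemma growth_of_subseq {G : Type*} [Group G] {X : Type*} [PseudoMetricSpace X] [MulAction G X]
    [IsIsometricSMul G X] (g : G) (v : X) {m : ℕ} (hm : 0 < m) {a : ℝ}
    (h : ∀ n : ℕ, a * n ≤ dist v (g ^ (m * n) • v)) (n : ℕ) :
    a / m * n ≤ dist v (g ^ n • v) := by
  have h1 := dist_pow_mul_le (g ^ n) v m
  rw [← pow_mul, mul_comm n m] at h1
  have hm' : (0 : ℝ) < m := by exact_mod_cast hm
  rw [div_mul_eq_mul_div, div_le_iff₀ hm']
  linarith [h n]

/-- an element of infinite order in an abelian group is detected by a real character -/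
lemma exists_real_hom {M : Type*} [CommGroup M] (x : M) (hx : ¬ IsOfFinOrder x) :
    ∃ f : M →* Multiplicative ℝ, Multiplicative.toAdd (f x) ≠ 0 := by
  have hinj : Function.Injective (zmultiplesHom (Additive M) (Additive.ofMul x)) := by
    rw [injective_iff_map_eq_zero]
    intro n hn
    by_contra hne
    apply hx
    rw [isOfFinOrder_iff_zpow_eq_one]
    refine ⟨n, hne, ?_⟩
    have : n • (Additive.ofMul x) = 0 := by simpa using hn
    rw [← ofMul_zpow] at this
    exact Additive.ofMul.injective this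
  obtain ⟨F, hF⟩ := (Module.Baer.of_divisible ℝ).extension_property_addMonoidHom
    (zmultiplesHom (Additive M) (Additive.ofMul x)) hinj (zmultiplesHom ℝ (1 : ℝ))
  refine ⟨AddMonoidHom.toMultiplicativeRight F, ?_⟩
  have h1 := DFunLike.congr_fun hF 1
  simp only [AddMonoidHom.comp_apply, zmultiplesHom_apply, one_smul] at h1
  show F (Additive.ofMul x) ≠ 0
  rw [h1]
  exact one_ne_zero

end Vale.Agent.L1Bass
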