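import Vale.Agent.L1Bass.Norm

/-! Tracial functionals twisted by a Hochschild cocycle. -/

set_option linter.unusedSectionVars false

namespace Vale.Agent.L1Bass

open Finset

variable {G : Type*} [Group G] {A : Type*} [NormedRing A]

/-- the linear functional with weights `t` -/
noncomputable def fT (tr : A →+ ℂ) (t : G → ℂ) (a : MonoidAlgebra A G) : ℂ :=
  a.coeff.sum fun x u => t x * tr u

/-- the bilinear functional with weights `k` -/
noncomputable def fPhi (tr : A →+ ℂ) (k : G → G → ℂ) (a b : MonoidAlgebra A G) : ℂ :=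
  a.coeff.sum fun x u => b.coeff.sum fun y v => k x y * tr (u * v)

variable (tr : A →+ ℂ) (t : G → ℂ) (k : G → G → ℂ)

lemma fT_add (a b : MonoidAlgebra A G) : fT tr t (a + b) = fT tr t a + fT tr t b := by
  classical
  unfold fT
  rw [MonoidAlgebra.coeff_add, Finsupp.sum_add_index']
  · simp
  · intro x u v; rw [map_add, mul_add]

@[simp] lemma fT_zero : fT tr t (0 : MonoidAlgebra A G) = 0 := by simp [fT]

lemma fT_single (x : G) (u : A) : fT tr t (MonoidAlgebra.single x u) = t x * tr u := by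
  simp [fT]

lemma fT_neg (a : MonoidAlgebra A G) : fT tr t (-a) = - fT tr t a := by
  have := fT_add tr t a (-a)
  rw [add_neg_cancel, fT_zero] at this
  exact (neg_eq_of_add_eq_zero_right this.symm).symm

lemma fT_sub (a b : MonoidAlgebra A G) : fT tr t (a - b) = fT tr t a - fT tr t b := by
  rw [sub_eq_add_neg, fT_add, fT_neg, sub_eq_add_neg]

lemma fPhi_add_left (a a' b : MonoidAlgebra A G) :
    fPhi tr k (a + a') b = fPhi tr k a b + fPhi tr k a' b := by
  classical
  unfold fPhi
  rw [MonoidAlgebra.coeff_add, Finsupp.sum_add_index']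
  · intro x; simp
  · intro x u v
    simp only [add_mul, map_add, mul_add, Finsupp.sum_add]

lemma fPhi_add_right (a b b' : MonoidAlgebra A G) :
    fPhi tr k a (b + b') = fPhi tr k a b + fPhi tr k a b' := by
  classical
  unfold fPhi
  rw [← Finsupp.sum_add]
  refine Finsupp.sum_congr fun x _ => ?_
  rw [MonoidAlgebra.coeff_add, Finsupp.sum_add_index']
  · intro y; simp
  · intro y v w
    simp only [mul_add, map_add]

@[simp] lemma fPhi_zero_left (b : MonoidAlgebra A G) : fPhi tr k 0 b = 0 := by simp [fPhi]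

@[simp] lemma fPhi_zero_right (a : MonoidAlgebra A G) : fPhi tr k a 0 = 0 := by simp [fPhi]

lemma fPhi_single (x y : G) (u v : A) :
    fPhi tr k (MonoidAlgebra.single x u) (MonoidAlgebra.single y v) = k x y * tr (u * v) := by
  simp [fPhi]

variable {tr t k}

lemma fT_mul (htr : ∀ u v : A, tr (u * v) = tr (v * u))
    (h1 : ∀ y z, t (y * z) = k z y + k y z) (b d : MonoidAlgebra A G) :
    fT tr t (b * d) = fPhi tr k b d + fPhi tr k d b := by
  induction b using MonoidAlgebra.induction_linear with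
  | zero => simp
  | add b b' hb hb' =>
    rw [add_mul, fT_add, hb, hb', fPhi_add_left, fPhi_add_right]; ring
  | single y v =>
    induction d using MonoidAlgebra.induction_linear with
    | zero => simp
    | add d d' hd hd' =>
      rw [mul_add, fT_add, hd, hd', fPhi_add_left, fPhi_add_right]; ring
    | single z w =>
      rw [MonoidAlgebra.single_mul_single, fT_single, fPhi_single, fPhi_single, h1, htr w v]
      ring

lemma fPhi_mul_right (htr : ∀ u v : A, tr (u * v) = tr (v * u))
    (h2 : ∀ x y z, k x (y * z) = k (z * x) y + k (x * y) z) (a b d : MonoidAlgebra A G) :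
    fPhi tr k a (b * d) = fPhi tr k (d * a) b + fPhi tr k (a * b) d := by
  induction a using MonoidAlgebra.induction_linear with
  | zero => simp
  | add a a' ha ha' =>
    rw [mul_add, add_mul, fPhi_add_left, ha, ha', fPhi_add_left, fPhi_add_left]; ring
  | single x u =>
    induction b using MonoidAlgebra.induction_linear with
    | zero => simp
    | add b b' hb hb' =>
      rw [mul_add, add_mul, fPhi_add_right, hb, hb', fPhi_add_left, fPhi_add_right]; ring
    | single y v =>
      induction d using MonoidAlgebra.induction_linear with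
      | zero => simp
      | add d d' hd hd' =>
        rw [mul_add, add_mul, fPhi_add_right, hd, hd', fPhi_add_left, fPhi_add_right]; ring
      | single z w =>
        rw [MonoidAlgebra.single_mul_single, MonoidAlgebra.single_mul_single,
          MonoidAlgebra.single_mul_single, fPhi_single, fPhi_single, fPhi_single, h2,
          mul_assoc w u v, htr w (u * v), mul_assoc u v w]
        ring

/-- key algebraic identity: the functional is controlled by the defect -/
lemma fT_eq (htr : ∀ u v : A, tr (u * v) = tr (v * u))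
    (h1 : ∀ y z, t (y * z) = k z y + k y z)
    (h2 : ∀ x y z, k x (y * z) = k (z * x) y + k (x * y) z) (a : MonoidAlgebra A G) :
    fT tr t a = 2 * fPhi tr k a (defect a) - 4 * fPhi tr k (defect a) a - fT tr t (defect a) := by
  have e1 : a * a = a + defect a := by unfold defect; abel
  have e2 := fT_mul htr h1 a a
  have e3 := fPhi_mul_right htr h2 a a a
  rw [e1, fT_add] at e2
  rw [e1, fPhi_add_left, fPhi_add_right] at e3
  linear_combination e2 - 2 * e3

lemma norm_fT_le {Ct τ : ℝ} (_hCt : 0 ≤ Ct) (hτ : 0 ≤ τ) (hC : ∀ u, ‖tr u‖ ≤ Ct * ‖u‖)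
    (ht : ∀ x, ‖t x‖ ≤ τ) (a : MonoidAlgebra A G) : ‖fT tr t a‖ ≤ τ * Ct * nrm a := by
  unfold fT nrm Finsupp.sum
  refine (norm_sum_le _ _).trans ?_
  rw [Finset.mul_sum]
  refine Finset.sum_le_sum fun x _ => ?_
  rw [norm_mul, mul_assoc]
  exact mul_le_mul (ht x) (hC _) (norm_nonneg _) hτ

lemma norm_fPhi_le {Ct B : ℝ} (hCt : 0 ≤ Ct) (hB : 0 ≤ B) (hC : ∀ u, ‖tr u‖ ≤ Ct * ‖u‖)
    (a b : MonoidAlgebra A G)
    (hk : ∀ x ∈ a.coeff.support, ∀ y ∈ b.coeff.support, ‖k x y‖ ≤ B) :
    ‖fPhi tr k a b‖ ≤ B * Ct * (nrm a * nrm b) := by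
  unfold fPhi nrm Finsupp.sum
  refine (norm_sum_le _ _).trans ?_
  rw [Finset.sum_mul, Finset.mul_sum]
  refine Finset.sum_le_sum fun x hx => ?_
  refine (norm_sum_le _ _).trans ?_
  rw [Finset.mul_sum, Finset.mul_sum]
  refine Finset.sum_le_sum fun y hy => ?_
  rw [norm_mul, mul_assoc]
  refine mul_le_mul (hk x hx y hy) ((hC _).trans ?_) (norm_nonneg _) hB
  exact mul_le_mul_of_nonneg_left (norm_mul_le _ _) hCt

/-- supports in balls -/
def InBall (L : G → ℝ) (R : ℝ) (a : MonoidAlgebra A G) : Prop := ∀ x ∈ a.coeff.support, L x ≤ R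

variable {L : G → ℝ}

lemma InBall.mono {R R' : ℝ} {a : MonoidAlgebra A G} (h : InBall L R a) (hR : R ≤ R') :
    InBall L R' a := fun x hx => (h x hx).trans hR

lemma InBall.mul (hL : ∀ x y, L (x * y) ≤ L x + L y) {R R' : ℝ} {a b : MonoidAlgebra A G}
    (ha : InBall L R a) (hb : InBall L R' b) : InBall L (R + R') (a * b) := by
  classical
  intro x hx
  have := MonoidAlgebra.support_coeff_mul_subset a b hx
  obtain ⟨y, hy, z, hz, rfl⟩ := Finset.mem_mul.1 this
  exact (hL _ _).trans (add_le_add (ha y hy) (hb z hz))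

lemma InBall.sub {R : ℝ} {a b : MonoidAlgebra A G}
    (ha : InBall L R a) (hb : InBall L R b) : InBall L R (a - b) := by
  classical
  intro x hx
  rw [MonoidAlgebra.coeff_sub] at hx
  rcases Finset.mem_union.1 (Finsupp.support_sub hx) with h | h
  · exact ha x h
  · exact hb x h

lemma InBall.nsmul {R : ℝ} {a : MonoidAlgebra A G} (n : ℕ)
    (ha : InBall L R a) : InBall L R (n • a) := by
  intro x hx
  apply ha
  rw [Finsupp.mem_support_iff] at hx ⊢
  intro h
  apply hx
  rw [MonoidAlgebra.coeff_smul, Finsupp.smul_apply, h, smul_zero]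

lemma InBall.defect (hL : ∀ x y, L (x * y) ≤ L x + L y) {R : ℝ} (hR : 0 ≤ R)
    {a : MonoidAlgebra A G} (ha : InBall L R a) : InBall L (2 * R) (defect a) :=
  InBall.sub ((ha.mul hL ha).mono (by linarith)) (ha.mono (by linarith))

lemma InBall.newton (hL : ∀ x y, L (x * y) ≤ L x + L y) {R : ℝ} (hR : 0 ≤ R)
    {a : MonoidAlgebra A G} (ha : InBall L R a) : InBall L (3 * R) (newton a) :=
  InBall.sub (((ha.mul hL ha).mono (by linarith)).nsmul _)
    ((((ha.mul hL ha).mul hL ha).mono (by linarith)).nsmul _)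

lemma InBall.iter (hL : ∀ x y, L (x * y) ≤ L x + L y) {R : ℝ} (hR : 0 ≤ R)
    {a : MonoidAlgebra A G} (ha : InBall L R a) (n : ℕ) : InBall L (3 ^ n * R) (iter a n) := by
  induction n with
  | zero =>
    show InBall L (3 ^ 0 * R) a
    simpa using ha
  | succ n ih =>
    have := InBall.newton hL (by positivity) ih
    rw [pow_succ, mul_comm (3 ^ n : ℝ) 3, mul_assoc]
    exact this

lemma exists_inBall (L : G → ℝ) (a : MonoidAlgebra A G) : ∃ R, 0 ≤ R ∧ InBall L R a := by
  classical
  refine ⟨∑ x ∈ a.coeff.support, |L x|, Finset.sum_nonneg fun _ _ => abs_nonneg _, ?_⟩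
  intro x hx
  exact (le_abs_self _).trans (Finset.single_le_sum (f := fun x => |L x|)
    (fun _ _ => abs_nonneg _) hx)

/-- Main estimate for finitely supported almost idempotents -/
theorem norm_fT_le_defect (htr : ∀ u v : A, tr (u * v) = tr (v * u))
    (h1 : ∀ y z, t (y * z) = k z y + k y z)
    (h2 : ∀ x y z, k x (y * z) = k (z * x) y + k (x * y) z)
    {Ct τ : ℝ} (hCt : 0 ≤ Ct) (hτ : 0 ≤ τ) (hC : ∀ u, ‖tr u‖ ≤ Ct * ‖u‖)
    (ht : ∀ x, ‖t x‖ ≤ τ) (hL0 : ∀ x, 0 ≤ L x) (hL : ∀ x y, L (x * y) ≤ L x + L y) {m : ℕ}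
    (hk : ∀ x y, ‖k x y‖ ≤ (1 + L x + L y) ^ m) (a : MonoidAlgebra A G)
    (hd : 14 * 3 ^ m * nrm (defect a) ≤ 1) (hM : 2 * nrm (defect a) * (3 + 2 * nrm a) ≤ 1) :
    ‖fT tr t a‖ ≤ 2 * τ * Ct * (3 + 2 * nrm a) * nrm (defect a) := by
  obtain ⟨R, hR, hRa⟩ := exists_inBall L a
  set ρ : ℝ := 1 / (2 * 3 ^ m) with hρdef
  have h3m : (1 : ℝ) ≤ 3 ^ m := one_le_pow₀ (by norm_num)
  have hρ0 : 0 < ρ := by positivity
  have hρ1 : ρ ≤ 1 / 2 := by
    rw [hρdef]
    apply one_div_le_one_div_of_le <;> linarith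
  have hρ2 : 7 * nrm (defect a) ≤ ρ := by
    rw [hρdef, le_div_iff₀ (by positivity)]
    linarith
  have hd0 := nrm_nonneg (defect a)
  have hn0 := nrm_nonneg a
  have hb := iter_bounds a hρ0.le hρ1 hρ2 hM
  have hN : ∀ n, nrm (iter a n) ≤ nrm a + 1 := by
    intro n
    have e1 := nrm_add_le (iter a n - a) a
    rw [sub_add_cancel] at e1
    have e2 := (hb n).2
    have e3 : (0 : ℝ) < (1 / 2) ^ n := by positivity
    have e4 : (3 + 2 * nrm a) * nrm (defect a) * (2 - 2 * (1 / 2) ^ n) ≤ 1 := by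
      have : 0 ≤ (3 + 2 * nrm a) * nrm (defect a) := by positivity
      nlinarith
    linarith
  -- the functional tends to zero along the iterates
  have hstep : ∀ n, ‖fT tr t (iter a n)‖ ≤
      (6 * (1 + 3 * R) ^ m * Ct * (nrm a + 1) + τ * Ct) * nrm (defect a) * (1 / 2) ^ n := by
    intro n
    have hball := InBall.iter hL hR hRa n
    have hR0 : 0 ≤ 3 ^ n * R := by positivity
    have hball' := InBall.defect hL hR0 hball
    have hB : ∀ x y, L x ≤ 2 * (3 ^ n * R) → L y ≤ 2 * (3 ^ n * R) → L x + L y ≤ 3 * (3 ^ n * R) →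
        ‖k x y‖ ≤ (3 ^ m) ^ n * (1 + 3 * R) ^ m := by
      intro x y _ _ hxy
      refine (hk x y).trans ?_
      have e1 : (1 : ℝ) ≤ 3 ^ n := one_le_pow₀ (by norm_num)
      have e2 : 1 + L x + L y ≤ 3 ^ n * (1 + 3 * R) := by nlinarith
      calc (1 + L x + L y) ^ m ≤ (3 ^ n * (1 + 3 * R)) ^ m :=
            pow_le_pow_left₀ (by linarith [hL0 x, hL0 y]) e2 m
        _ = _ := by rw [mul_pow, ← pow_mul, ← pow_mul, mul_comm n m]
    have b1 := norm_fPhi_le (tr := tr) (k := k) hCt
      (B := (3 ^ m) ^ n * (1 + 3 * R) ^ m) (by positivity) hC (iter a n) (defect (iter a n))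
      (fun x hx y hy => hB x y ((hball x hx).trans (by linarith)) (hball' y hy)
        (by linarith [hball x hx, hball' y hy]))
    have b2 := norm_fPhi_le (tr := tr) (k := k) hCt
      (B := (3 ^ m) ^ n * (1 + 3 * R) ^ m) (by positivity) hC (defect (iter a n)) (iter a n)
      (fun x hx y hy => hB x y (hball' x hx) ((hball y hy).trans (by linarith))
        (by linarith [hball y hy, hball' x hx]))
    have b3 := norm_fT_le (tr := tr) (t := t) hCt hτ hC ht (defect (iter a n))
    have hdn := (hb n).1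
    have hdn0 := nrm_nonneg (defect (iter a n))
    have hid := fT_eq htr h1 h2 (iter a n)
    have b4 : ‖fT tr t (iter a n)‖ ≤ 2 * ‖fPhi tr k (iter a n) (defect (iter a n))‖ +
        4 * ‖fPhi tr k (defect (iter a n)) (iter a n)‖ + ‖fT tr t (defect (iter a n))‖ := by
      rw [hid]
      refine (norm_sub_le _ _).trans (add_le_add ((norm_sub_le _ _).trans ?_) le_rfl)
      simp
    have hρn : (3 ^ m) ^ n * ρ ^ n = (1 / 2 : ℝ) ^ n := by
      rw [← mul_pow, hρdef]
      congr 1
      field_simp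
    have e5 : nrm (iter a n) * nrm (defect (iter a n)) ≤
        (nrm a + 1) * (ρ ^ n * nrm (defect a)) :=
      mul_le_mul (hN n) hdn hdn0 (by linarith)
    have e6 : (3 ^ m) ^ n * (1 + 3 * R) ^ m * Ct * (nrm (iter a n) * nrm (defect (iter a n))) ≤
        (1 + 3 * R) ^ m * Ct * (nrm a + 1) * nrm (defect a) * (1 / 2) ^ n := by
      calc _ ≤ (3 ^ m) ^ n * (1 + 3 * R) ^ m * Ct * ((nrm a + 1) * (ρ ^ n * nrm (defect a))) := by
            gcongr
        _ = (1 + 3 * R) ^ m * Ct * (nrm a + 1) * nrm (defect a) * ((3 ^ m) ^ n * ρ ^ n) := by ring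
        _ = _ := by rw [hρn]
    have e7 : τ * Ct * nrm (defect (iter a n)) ≤ τ * Ct * nrm (defect a) * (1 / 2) ^ n := by
      have : nrm (defect (iter a n)) ≤ nrm (defect a) * (1 / 2) ^ n := by
        refine hdn.trans ?_
        rw [mul_comm]
        gcongr
      calc _ ≤ τ * Ct * (nrm (defect a) * (1 / 2) ^ n) := by gcongr
        _ = _ := by ring
    have b2' : ‖fPhi tr k (defect (iter a n)) (iter a n)‖ ≤ (3 ^ m) ^ n * (1 + 3 * R) ^ m * Ct *
        (nrm (iter a n) * nrm (defect (iter a n))) := by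
      refine b2.trans_eq ?_; ring
    nlinarith
  -- conclude
  have hlim : ∀ n, ‖fT tr t a‖ ≤ (6 * (1 + 3 * R) ^ m * Ct * (nrm a + 1) + τ * Ct) *
      nrm (defect a) * (1 / 2) ^ n + 2 * τ * Ct * (3 + 2 * nrm a) * nrm (defect a) := by
    intro n
    have e1 : fT tr t a = fT tr t (iter a n) - fT tr t (iter a n - a) := by
      rw [fT_sub]; ring
    have e2 : ‖fT tr t (iter a n - a)‖ ≤ 2 * τ * Ct * (3 + 2 * nrm a) * nrm (defect a) := by
      refine (norm_fT_le (tr := tr) (t := t) hCt hτ hC ht _).trans ?_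
      have e3 := (hb n).2
      have e4 : (0 : ℝ) < (1 / 2) ^ n := by positivity
      have e5 : nrm (iter a n - a) ≤ (3 + 2 * nrm a) * nrm (defect a) * 2 := by
        refine e3.trans ?_
        have : 0 ≤ (3 + 2 * nrm a) * nrm (defect a) := by positivity
        nlinarith
      calc τ * Ct * nrm (iter a n - a) ≤ τ * Ct * ((3 + 2 * nrm a) * nrm (defect a) * 2) := by
            gcongr
        _ = _ := by ring
    rw [e1]
    exact (norm_sub_le _ _).trans (add_le_add (hstep n) e2)
  have htend : Filter.Tendsto (fun n : ℕ => (6 * (1 + 3 * R) ^ m * Ct * (nrm a + 1) + τ * Ct) *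
      nrm (defect a) * (1 / 2) ^ n + 2 * τ * Ct * (3 + 2 * nrm a) * nrm (defect a)) Filter.atTop
      (nhds ((6 * (1 + 3 * R) ^ m * Ct * (nrm a + 1) + τ * Ct) * nrm (defect a) * 0 +
        2 * τ * Ct * (3 + 2 * nrm a) * nrm (defect a))) :=
    ((tendsto_pow_atTop_nhds_zero_of_lt_one (by norm_num) (by norm_num)).const_mul _).add_const _
  have := ge_of_tendsto' htend hlim
  simpa using this

end Vale.Agent.L1Bass
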