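import Vale.Agent.L1Bass.Ell1

/-! The Hochschild cocycle coming from an isometric action. -/

set_option linter.unusedSectionVars false

namespace Vale.Agent.L1Bass

open Filter Topology

variable {X : Type*} [PseudoMetricSpace X]

/-- quadrilateral bracket -/
noncomputable def br (a b c d : X) : ℝ :=
  dist a d ^ 2 + dist b c ^ 2 - dist a c ^ 2 - dist b d ^ 2

lemma br_add_left (a b e c d : X) : br a b c d + br b e c d = br a e c d := by
  unfold br; ring

lemma br_add_right (a b c d f : X) : br a b c d + br a b d f = br a b c f := by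
  unfold br; ring

lemma br_swap (a b c d : X) : br b a c d = - br a b c d := by
  unfold br; ring

lemma abs_br_le {K : ℝ} (hQ : ∀ a b c d : X, br a b c d ≤ K * (dist a b ^ 2 + dist c d ^ 2))
    (a b c d : X) : |br a b c d| ≤ K * (dist a b ^ 2 + dist c d ^ 2) := by
  rw [abs_le]
  refine ⟨?_, hQ a b c d⟩
  have := hQ b a c d
  rw [br_swap, dist_comm b a] at this
  linarith

variable {G : Type*} [Group G] [MulAction G X] [IsIsometricSMul G X]

lemma br_smul (g : G) (a b c d : X) : br (g • a) (g • b) (g • c) (g • d) = br a b c d := by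
  unfold br; simp only [dist_smul]

lemma abs_br_pow_le {K : ℝ}
    (hQ : ∀ a b c d : X, br a b c d ≤ K * (dist a b ^ 2 + dist c d ^ 2))
    (h : G) (w w' u : X) (n : ℕ) :
    |br w w' u (h ^ n • u)| ≤ n * (K * (dist w w' ^ 2 + dist u (h • u) ^ 2)) := by
  induction n with
  | zero => simp [br]
  | succ n ih =>
    have e1 := br_add_right w w' u (h ^ n • u) (h ^ (n + 1) • u)
    rw [← e1]
    refine (abs_add_le _ _).trans ?_
    have e2 := abs_br_le hQ w w' (h ^ n • u) (h ^ (n + 1) • u)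
    have e3 : dist (h ^ n • u) (h ^ (n + 1) • u) = dist u (h • u) := by
      rw [pow_succ, mul_smul, dist_smul]
    rw [e3] at e2
    push_cast
    linarith

/-- the ultralimit cocycle -/
noncomputable def beta (U : Ultrafilter ℕ) (v : X) (h : G) (w w' : X) : ℝ :=
  limUnder (U : Filter ℕ) fun n : ℕ => br w w' v (h ^ n • v) / n

lemma exists_ulim (U : Ultrafilter ℕ) {f : ℕ → ℝ} {B : ℝ} (hf : ∀ n, |f n| ≤ B) :
    ∃ l, Tendsto f U (𝓝 l) := by
  have h1 : Set.Icc (-B) B ∈ (U.map f) := by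
    rw [Ultrafilter.mem_map]
    exact Filter.univ_mem' fun n => abs_le.1 (hf n)
  obtain ⟨x, -, hx⟩ := isCompact_Icc.ultrafilter_le_nhds' (U.map f) h1
  exact ⟨x, hx⟩

variable {K : ℝ} (hQ : ∀ a b c d : X, br a b c d ≤ K * (dist a b ^ 2 + dist c d ^ 2))
  (U : Ultrafilter ℕ) (hU : (U : Filter ℕ) ≤ atTop) (v : X)

include hQ

lemma quot_bound (hK : 0 ≤ K) (h : G) (w w' u : X) (n : ℕ) :
    |br w w' u (h ^ n • u) / n| ≤ K * (dist w w' ^ 2 + dist u (h • u) ^ 2) := by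
  rcases Nat.eq_zero_or_pos n with rfl | hn
  · simp; positivity
  · have hn' : (0 : ℝ) < n := by exact_mod_cast hn
    rw [abs_div, abs_of_pos hn', div_le_iff₀ hn']
    have := abs_br_pow_le hQ h w w' u n
    linarith

lemma tendsto_beta_self (hK : 0 ≤ K) (h : G) (w w' : X) :
    Tendsto (fun n : ℕ => br w w' v (h ^ n • v) / n) U (𝓝 (beta U v h w w')) :=
  tendsto_nhds_limUnder (exists_ulim U (quot_bound hQ hK h w w' v))

include hU

lemma tendsto_beta (hK : 0 ≤ K) (h : G) (w w' u : X) :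
    Tendsto (fun n : ℕ => br w w' u (h ^ n • u) / n) U (𝓝 (beta U v h w w')) := by
  have h1 := tendsto_beta_self hQ U v hK h w w'
  have h2 : Tendsto (fun n : ℕ => (br w w' u v + br w w' (h ^ n • v) (h ^ n • u)) / n) U (𝓝 0) := by
    have h3 : Tendsto (fun n : ℕ => (2 * (K * (dist w w' ^ 2 + dist u v ^ 2))) / (n : ℝ)) U
        (𝓝 0) := (tendsto_const_div_atTop_nhds_zero_nat _).mono_left hU
    refine squeeze_zero_norm (fun n => ?_) h3
    rw [Real.norm_eq_abs, abs_div, Nat.abs_cast]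
    gcongr
    have e1 := abs_br_le hQ w w' u v
    have e2 := abs_br_le hQ w w' (h ^ n • v) (h ^ n • u)
    rw [dist_smul, dist_comm v u] at e2
    linarith [abs_add_le (br w w' u v) (br w w' (h ^ n • v) (h ^ n • u))]
  have h4 := h1.add h2
  rw [add_zero] at h4
  refine h4.congr fun n => ?_
  rw [← add_div]
  congr 1
  unfold br; ring

lemma beta_add (hK : 0 ≤ K) (h : G) (a b c : X) :
    beta U v h a b + beta U v h b c = beta U v h a c := by
  refine tendsto_nhds_unique ?_ (tendsto_beta hQ U hU v hK h a c v)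
  refine ((tendsto_beta hQ U hU v hK h a b v).add (tendsto_beta hQ U hU v hK h b c v)).congr
    fun n => ?_
  rw [← add_div, br_add_left]

lemma beta_conj (hK : 0 ≤ K) (z h : G) (a b : X) :
    beta U v (z * h * z⁻¹) (z • a) (z • b) = beta U v h a b := by
  refine tendsto_nhds_unique (tendsto_beta hQ U hU v hK (z * h * z⁻¹) (z • a) (z • b) v) ?_
  refine (tendsto_beta hQ U hU v hK h a b (z⁻¹ • v)).congr fun n => ?_
  congr 1
  rw [← br_smul z a b]
  congr 1
  · simp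
  · rw [conj_pow]
    simp [mul_smul]

lemma abs_beta_le (hK : 0 ≤ K) (h : G) (a b : X) :
    |beta U v h a b| ≤ K * (dist a b ^ 2 + dist v (h • v) ^ 2) :=
  le_of_tendsto ((tendsto_beta hQ U hU v hK h a b v).abs)
    (Eventually.of_forall fun n => quot_bound hQ hK h a b v n)

/-- the cocycle -/
noncomputable def coc (U : Ultrafilter ℕ) (v : X) (x y : G) : ℝ := beta U v (x * y) (y⁻¹ • v) v

omit hQ hU in
lemma coc_def (x y : G) : coc U v x y = beta U v (x * y) (y⁻¹ • v) v := rfl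

lemma coc_mul (hK : 0 ≤ K) (x y z : G) :
    coc U v x (y * z) = coc U v (z * x) y + coc U v (x * y) z := by
  rw [coc_def, coc_def, coc_def]
  have h1 := beta_conj hQ U hU v hK z⁻¹ (z * x * y) (y⁻¹ • v) v
  rw [inv_inv] at h1
  have e1 : z⁻¹ * (z * x * y) * z = x * (y * z) := by group
  have e2 : x * y * z = x * (y * z) := by group
  rw [e1] at h1
  rw [← h1, e2, mul_inv_rev, mul_smul, beta_add hQ U hU v hK]

lemma coc_one_conj (hK : 0 ≤ K) (z g : G) : coc U v 1 (z * g * z⁻¹) = coc U v 1 g := by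
  rw [coc_def, coc_def, one_mul, one_mul]
  have h0 : (z * g * z⁻¹)⁻¹ • v = z • (g⁻¹ • (z⁻¹ • v)) := by
    simp [mul_smul]
  have h1 := beta_conj hQ U hU v hK z g (g⁻¹ • (z⁻¹ • v)) (z⁻¹ • v)
  rw [smul_inv_smul] at h1
  rw [h0, h1]
  have h2 := beta_conj hQ U hU v hK g⁻¹ g (z⁻¹ • v) v
  have e1 : g⁻¹ * g * g⁻¹⁻¹ = g := by group
  rw [e1] at h2
  have h3 := beta_add hQ U hU v hK g (g⁻¹ • (z⁻¹ • v)) (g⁻¹ • v) v
  have h4 := beta_add hQ U hU v hK g (g⁻¹ • (z⁻¹ • v)) (z⁻¹ • v) v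
  linarith

lemma abs_coc_le (hK : 0 ≤ K) (x y : G) :
    |coc U v x y| ≤ K * (dist v (y • v) ^ 2 + (dist v (x • v) + dist v (y • v)) ^ 2) := by
  rw [coc_def]
  refine (abs_beta_le hQ U hU v hK _ _ _).trans ?_
  have e1 : dist (y⁻¹ • v) v = dist v (y • v) := by
    rw [← dist_smul y, smul_inv_smul]
  have e2 : dist v ((x * y) • v) ≤ dist v (x • v) + dist v (y • v) := by
    refine (dist_triangle v (x • v) _).trans ?_
    rw [mul_smul, dist_smul]
  rw [e1]
  gcongr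

omit hQ hU

/-- existence of a good ultrafilter -/
lemma exists_ultrafilter (g : G) {κ : ℝ} (hκ : 0 < κ)
    (hg : ∀ n : ℕ, κ * n ≤ dist v (g ^ n • v)) :
    ∃ U : Ultrafilter ℕ, (U : Filter ℕ) ≤ atTop ∧
      {n : ℕ | κ ^ 2 * n ≤ dist v (g ^ (n + 1) • v) ^ 2 - dist v (g ^ n • v) ^ 2} ∈ U := by
  have hfreq : ∃ᶠ n : ℕ in atTop,
      κ ^ 2 * n ≤ dist v (g ^ (n + 1) • v) ^ 2 - dist v (g ^ n • v) ^ 2 := by
    intro hcon
    obtain ⟨N, hN⟩ := eventually_atTop.1 hcon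
    -- then the squares grow at most like κ² n² / 2
    have h1 : ∀ m : ℕ, dist v (g ^ (N + m) • v) ^ 2 ≤
        dist v (g ^ N • v) ^ 2 + κ ^ 2 * (m * N + m ^ 2 / 2) := by
      intro m
      induction m with
      | zero => simp
      | succ m ih =>
        have h2 := hN (N + m) (by omega)
        rw [not_le] at h2
        have e1 : N + m + 1 = N + (m + 1) := by ring
        rw [e1] at h2
        push_cast at h2 ⊢
        nlinarith [sq_nonneg κ]
    have h3 : ∀ m : ℕ, κ ^ 2 * ((N : ℝ) + m) ^ 2 ≤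
        dist v (g ^ N • v) ^ 2 + κ ^ 2 * (m * N + m ^ 2 / 2) := by
      intro m
      have h4 := hg (N + m)
      push_cast at h4
      have h5 : (κ * ((N : ℝ) + m)) ^ 2 ≤ dist v (g ^ (N + m) • v) ^ 2 :=
        pow_le_pow_left₀ (by positivity) h4 2
      rw [mul_pow] at h5
      exact h5.trans (h1 m)
    -- contradiction for large m
    obtain ⟨m, hm⟩ := exists_nat_gt (2 * dist v (g ^ N • v) ^ 2 / κ ^ 2 + 1)
    have h6 := h3 m
    have hκ2 : 0 < κ ^ 2 := by positivity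
    have hm1 : (1 : ℝ) ≤ m := by
      have : 0 ≤ 2 * dist v (g ^ N • v) ^ 2 / κ ^ 2 := by positivity
      linarith
    have h7 : 2 * dist v (g ^ N • v) ^ 2 < κ ^ 2 * m := by
      have : 2 * dist v (g ^ N • v) ^ 2 / κ ^ 2 < m := by linarith
      rw [div_lt_iff₀ hκ2] at this
      linarith
    have hN0 : (0 : ℝ) ≤ N := Nat.cast_nonneg N
    have h8 : κ ^ 2 * ((N : ℝ) + m) ^ 2 =
        κ ^ 2 * N ^ 2 + 2 * (κ ^ 2 * (m * N)) + κ ^ 2 * m ^ 2 := by ring
    have h9 : 0 ≤ κ ^ 2 * ((N : ℝ)) ^ 2 := by positivity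
    have h10 : 0 ≤ κ ^ 2 * (m * (N : ℝ)) := by positivity
    have h11 : κ ^ 2 * (m : ℝ) ≤ κ ^ 2 * m ^ 2 := by
      have : (m : ℝ) ≤ m ^ 2 := by nlinarith
      gcongr
    nlinarith
  set S : Set ℕ := {n : ℕ | κ ^ 2 * n ≤
      dist v (g ^ (n + 1) • v) ^ 2 - dist v (g ^ n • v) ^ 2} with hS
  have hne : NeBot (atTop ⊓ 𝓟 S) := frequently_mem_iff_neBot.1 hfreq
  have hle : ((Ultrafilter.of (atTop ⊓ 𝓟 S) : Ultrafilter ℕ) : Filter ℕ) ≤ atTop ⊓ 𝓟 S :=
    Ultrafilter.of_le _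
  exact ⟨Ultrafilter.of (atTop ⊓ 𝓟 S), hle.trans inf_le_left,
    (hle.trans inf_le_right) (mem_principal_self S)⟩

include hQ hU

lemma coc_one_ge (hK : 0 ≤ K) (g : G) {κ : ℝ}
    (hS : {n : ℕ | κ ^ 2 * n ≤ dist v (g ^ (n + 1) • v) ^ 2 - dist v (g ^ n • v) ^ 2} ∈ U) :
    κ ^ 2 ≤ coc U v 1 g := by
  rw [coc_def, one_mul]
  have h1 := tendsto_beta hQ U hU v hK g (g⁻¹ • v) v v
  have h2 : Tendsto (fun n : ℕ => dist (g⁻¹ • v) v ^ 2 / (n : ℝ)) U (𝓝 0) :=
    (tendsto_const_div_atTop_nhds_zero_nat _).mono_left hU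
  have h3 := h1.add h2
  rw [add_zero] at h3
  refine ge_of_tendsto h3 ?_
  have hpos : ∀ᶠ n : ℕ in (U : Filter ℕ), 0 < n := hU (eventually_gt_atTop 0)
  filter_upwards [hS, hpos] with n hn hn0
  have hn' : (0 : ℝ) < n := by exact_mod_cast hn0
  rw [← add_div, le_div_iff₀ hn']
  have e1 : dist (g⁻¹ • v) (g ^ n • v) = dist v (g ^ (n + 1) • v) := by
    rw [← dist_smul g, smul_inv_smul, smul_smul, ← pow_succ']
  have hn2 : κ ^ 2 * n ≤ dist v (g ^ (n + 1) • v) ^ 2 - dist v (g ^ n • v) ^ 2 := hn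
  unfold br
  rw [e1, dist_self]
  linarith

end Vale.Agent.L1Bass
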