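import Vale.Agent.L1Bass.Geometry

/-! Matrix version. -/

set_option linter.unusedSectionVars false

namespace Vale.Agent.L1Bass

open Filter Topology

attribute [local instance] Matrix.linftyOpNormedRing Matrix.linftyOpNormedAddCommGroup
  Matrix.linftyOpNormedSpace Matrix.linftyOpNormedAlgebra

variable {G : Type*} [Group G] {q : ℕ}

lemma norm_entry_le (M : Matrix (Fin q) (Fin q) ℂ) (i j : Fin q) : ‖M i j‖ ≤ ‖M‖ := by
  rw [Matrix.linfty_opNorm_def]
  have h1 : ‖M i j‖₊ ≤ ∑ j, ‖M i j‖₊ :=
    Finset.single_le_sum (f := fun j => ‖M i j‖₊) (fun _ _ => zero_le) (Finset.mem_univ j)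
  have h2 : ∑ j, ‖M i j‖₊ ≤ Finset.univ.sup fun i => ∑ j, ‖M i j‖₊ :=
    Finset.le_sup (f := fun i => ∑ j, ‖M i j‖₊) (Finset.mem_univ i)
  exact_mod_cast h1.trans h2

lemma norm_le_sum (M : Matrix (Fin q) (Fin q) ℂ) : ‖M‖ ≤ ∑ i, ∑ j, ‖M i j‖ := by
  rw [Matrix.linfty_opNorm_def]
  have : (Finset.univ.sup fun i => ∑ j, ‖M i j‖₊) ≤ ∑ i, ∑ j, ‖M i j‖₊ := by
    refine Finset.sup_le fun i _ => ?_
    exact Finset.single_le_sum (f := fun i => ∑ j, ‖M i j‖₊) (fun _ _ => zero_le)
      (Finset.mem_univ i)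
  refine (NNReal.coe_le_coe.2 this).trans_eq ?_
  rw [NNReal.coe_sum]
  refine Finset.sum_congr rfl fun i _ => ?_
  rw [NNReal.coe_sum]
  rfl

/-- entry as a continuous additive map -/
noncomputable def entry (i j : Fin q) : Matrix (Fin q) (Fin q) ℂ →+ ℂ where
  toFun M := M i j
  map_zero' := rfl
  map_add' _ _ := rfl

lemma continuous_entry (i j : Fin q) : Continuous (entry (q := q) i j) :=
  AddMonoidHomClass.continuous_of_bound _ 1 fun M => by
    rw [one_mul]; exact norm_entry_le M i j

lemma tsum_entry {f : G → Matrix (Fin q) (Fin q) ℂ} (hf : Summable f) (i j : Fin q) :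
    (∑' g, f g) i j = ∑' g, f g i j := by
  have := hf.map_tsum (entry i j) (continuous_entry i j)
  exact this

lemma norm_trace_le (M : Matrix (Fin q) (Fin q) ℂ) : ‖Matrix.trace M‖ ≤ q * ‖M‖ := by
  unfold Matrix.trace
  refine (norm_sum_le _ _).trans ?_
  calc ∑ i, ‖M.diag i‖ ≤ ∑ _i : Fin q, ‖M‖ := Finset.sum_le_sum fun i _ => norm_entry_le M i i
    _ = q * ‖M‖ := by simp

/-- general vanishing theorem for matrices, in terms of a Hochschild type cocycle -/
theorem matrix_vanish {S : Set G} (hS : ∀ x y, x * y ∈ S ↔ y * x ∈ S) {c : G → G → ℂ} {κ : ℂ}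
    (hκ : κ ≠ 0) (hc1 : ∀ x ∈ S, c 1 x = κ)
    (hc : ∀ x y z, x * y * z ∈ S → c x (y * z) = c (z * x) y + c (x * y) z)
    {L : G → ℝ} (hL0 : ∀ x, 0 ≤ L x) (hL : ∀ x y, L (x * y) ≤ L x + L y) {m : ℕ}
    (hcb : ∀ x y, x * y ∈ S → ‖c x y‖ ≤ (1 + L x + L y) ^ m)
    {e : Fin q → Fin q → G → ℂ} (he : ∀ i j, Summable fun g => ‖e i j g‖)
    (hid : ∀ i j g, ∑ k, ∑' h, e i k h * e k j (h⁻¹ * g) = e i j g) :
    ∑' g : S, ∑ i, e i i g = 0 := by
  classical
  set E : G → Matrix (Fin q) (Fin q) ℂ := fun g => Matrix.of fun i j => e i j g with hE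
  have hsE : Summable fun g => ‖E g‖ := by
    refine Summable.of_nonneg_of_le (fun _ => norm_nonneg _) (fun g => norm_le_sum (E g)) ?_
    exact summable_sum fun i _ => summable_sum fun j _ => he i j
  have hidE : ∀ g, E g = ∑' h, E h * E (h⁻¹ * g) := by
    intro g
    have hs : Summable fun h => E h * E (h⁻¹ * g) :=
      Summable.of_norm_bounded
        (summable_conv_fst hsE hsE (fun _ => norm_nonneg _) (fun _ => norm_nonneg _) g)
        fun h => norm_mul_le _ _
    ext i j
    rw [tsum_entry hs]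
    have h1 : ∀ h, (E h * E (h⁻¹ * g)) i j = ∑ k, e i k h * e k j (h⁻¹ * g) := fun h => by
      rw [Matrix.mul_apply]; rfl
    simp only [h1]
    rw [Summable.tsum_finsetSum]
    · exact (hid i j g).symm
    · intro k _
      refine Summable.of_norm_bounded
        (summable_conv_fst (he i k) (he k j) (fun _ => norm_nonneg _) (fun _ => norm_nonneg _) g)
        fun h => (norm_mul _ _).le
  have key := tsum_eq_zero (A := Matrix (Fin q) (Fin q) ℂ)
    (tr := Matrix.traceAddMonoidHom (Fin q) ℂ)
    (t := fun x => if x ∈ S then κ else 0)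
    (k := fun x y => if x * y ∈ S then c x y else 0) (L := L)
    (fun u v => Matrix.trace_mul_comm u v)
    (by
      intro y z
      by_cases h : y * z ∈ S
      · have h' : z * y ∈ S := (hS _ _).1 h
        simp only [h, h', if_true]
        have := hc 1 y z (by simpa using h)
        rw [one_mul, mul_one, hc1 _ h] at this
        exact this
      · have h' : z * y ∉ S := fun h' => h ((hS _ _).1 h')
        simp [h, h'])
    (by
      intro x y z
      have e1 : x * (y * z) = x * y * z := by group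
      have e2 : z * x * y ∈ S ↔ x * y * z ∈ S := by
        rw [mul_assoc z x y]; exact hS _ _
      by_cases h : x * y * z ∈ S
      · simp only [e1, e2, h, if_true]
        exact hc x y z h
      · simp only [e1, e2, h, if_false]; simp)
    (Ct := q) (τ := ‖κ‖) (Nat.cast_nonneg _) (norm_nonneg _)
    (fun u => norm_trace_le u)
    (fun x => by split_ifs <;> simp)
    hL0 hL (m := m)
    (by
      intro x y
      split_ifs with h
      · exact hcb x y h
      · rw [norm_zero]
        have := hL0 x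
        have := hL0 y
        positivity)
    hsE hidE
  have h1 : ∀ g, (if g ∈ S then κ else 0) * (Matrix.traceAddMonoidHom (Fin q) ℂ) (E g) =
      κ * S.indicator (fun g => ∑ i, e i i g) g := by
    intro g
    by_cases h : g ∈ S
    · rw [if_pos h, Set.indicator_of_mem h]; rfl
    · rw [if_neg h, Set.indicator_of_notMem h]; simp
  simp only [h1] at key
  rw [tsum_mul_left] at key
  rw [tsum_subtype S (fun g => ∑ i, e i i g)]
  exact (mul_eq_zero.1 key).resolve_left hκ

end Vale.Agent.L1Bass
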