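import Mathlib

/-! Elementary estimates in the group ring with coefficients in a normed ring. -/

set_option linter.unusedSectionVars false

namespace Vale.Agent.L1Bass

open Finset

variable {G : Type*} [Group G] {A : Type*} [NormedRing A]

/-- the `ℓ¹`-norm of an element of the group ring -/
noncomputable def nrm (a : MonoidAlgebra A G) : ℝ := a.coeff.sum fun _ u => ‖u‖

lemma nrm_eq_sum (a : MonoidAlgebra A G) {s : Finset G} (hs : a.coeff.support ⊆ s) :
    nrm a = ∑ g ∈ s, ‖a.coeff g‖ :=
  Finsupp.sum_of_support_subset _ hs _ (by simp)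

lemma nrm_nonneg (a : MonoidAlgebra A G) : 0 ≤ nrm a :=
  Finset.sum_nonneg fun _ _ => norm_nonneg _

@[simp] lemma nrm_zero : nrm (0 : MonoidAlgebra A G) = 0 := by simp [nrm]

lemma nrm_single (g : G) (u : A) : nrm (MonoidAlgebra.single g u) = ‖u‖ := by
  simp [nrm]

lemma nrm_add_le (a b : MonoidAlgebra A G) : nrm (a + b) ≤ nrm a + nrm b := by
  classical
  set s := a.coeff.support ∪ b.coeff.support ∪ (a + b).coeff.support with hs
  rw [nrm_eq_sum a (s := s) (by intro x hx; simp only [hs, mem_union]; tauto),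
    nrm_eq_sum b (s := s) (by intro x hx; simp only [hs, mem_union]; tauto),
    nrm_eq_sum (a + b) (s := s) (by intro x hx; simp only [hs, mem_union]; tauto),
    ← Finset.sum_add_distrib]
  refine Finset.sum_le_sum fun g _ => ?_
  simpa using norm_add_le (a.coeff g) (b.coeff g)

lemma nrm_neg (a : MonoidAlgebra A G) : nrm (-a) = nrm a := by
  rw [nrm, nrm, MonoidAlgebra.coeff_neg, Finsupp.sum_neg_index (by simp)]
  simp

lemma nrm_sub_le (a b : MonoidAlgebra A G) : nrm (a - b) ≤ nrm a + nrm b := by
  rw [sub_eq_add_neg]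
  exact (nrm_add_le _ _).trans_eq (by rw [nrm_neg])

lemma nrm_nsmul_le (n : ℕ) (a : MonoidAlgebra A G) : nrm (n • a) ≤ n * nrm a := by
  induction n with
  | zero => simp
  | succ n ih =>
    rw [succ_nsmul]
    push_cast
    linarith [nrm_add_le (n • a) a]

lemma nrm_sum_le {ι : Type*} (s : Finset ι) (f : ι → MonoidAlgebra A G) :
    nrm (∑ i ∈ s, f i) ≤ ∑ i ∈ s, nrm (f i) :=
  Finset.le_sum_of_subadditive nrm nrm_zero.le nrm_add_le s f

lemma nrm_mul_le (a b : MonoidAlgebra A G) : nrm (a * b) ≤ nrm a * nrm b := by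
  rw [MonoidAlgebra.mul_def, Finsupp.sum]
  refine (nrm_sum_le _ _).trans ?_
  rw [nrm, Finsupp.sum, Finset.sum_mul]
  refine Finset.sum_le_sum fun x _ => ?_
  rw [Finsupp.sum]
  refine (nrm_sum_le _ _).trans ?_
  rw [nrm, Finsupp.sum, Finset.mul_sum]
  refine Finset.sum_le_sum fun y _ => ?_
  rw [nrm_single]
  exact norm_mul_le _ _

/-- Newton step -/
noncomputable def newton (a : MonoidAlgebra A G) : MonoidAlgebra A G :=
  3 • (a * a) - 2 • (a * a * a)

/-- idempotency defect -/
noncomputable def defect (a : MonoidAlgebra A G) : MonoidAlgebra A G := a * a - a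

lemma defect_newton (a : MonoidAlgebra A G) :
    defect (newton a) = 4 • (defect a * defect a * defect a) - 3 • (defect a * defect a) := by
  unfold defect newton
  noncomm_ring

lemma newton_sub (a : MonoidAlgebra A G) :
    newton a - a = defect a - 2 • (a * defect a) := by
  unfold defect newton
  noncomm_ring

lemma nrm_defect_newton_le (a : MonoidAlgebra A G) {ρ : ℝ} (h1 : nrm (defect a) ≤ 1)
    (h : 7 * nrm (defect a) ≤ ρ) : nrm (defect (newton a)) ≤ ρ * nrm (defect a) := by
  have h0 := nrm_nonneg (defect a)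
  rw [defect_newton]
  have e1 : nrm (4 • (defect a * defect a * defect a)) ≤ 4 * nrm (defect a) ^ 3 := by
    refine (nrm_nsmul_le 4 _).trans ?_
    have := (nrm_mul_le (defect a * defect a) (defect a))
    have h2 := nrm_mul_le (defect a) (defect a)
    have h3 : nrm (defect a * defect a) * nrm (defect a) ≤
      nrm (defect a) * nrm (defect a) * nrm (defect a) := by gcongr
    push_cast
    nlinarith
  have e2 : nrm (3 • (defect a * defect a)) ≤ 3 * nrm (defect a) ^ 2 := by
    refine (nrm_nsmul_le 3 _).trans ?_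
    have h2 := nrm_mul_le (defect a) (defect a)
    push_cast
    nlinarith
  have e3 := nrm_sub_le (4 • (defect a * defect a * defect a)) (3 • (defect a * defect a))
  have e4 : 4 * nrm (defect a) ^ 3 + 3 * nrm (defect a) ^ 2 ≤ ρ * nrm (defect a) := by
    have : nrm (defect a) ^ 3 ≤ nrm (defect a) ^ 2 := by nlinarith [sq_nonneg (nrm (defect a))]
    nlinarith
  linarith

lemma nrm_newton_sub_le (a : MonoidAlgebra A G) :
    nrm (newton a - a) ≤ nrm (defect a) * (1 + 2 * nrm a) := by
  rw [newton_sub]
  have h1 := nrm_sub_le (defect a) (2 • (a * defect a))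
  have h2 := nrm_nsmul_le 2 (a * defect a)
  have h3 := nrm_mul_le a (defect a)
  push_cast at h2
  nlinarith

/-- the Newton iterates -/
noncomputable def iter (a : MonoidAlgebra A G) : ℕ → MonoidAlgebra A G
  | 0 => a
  | n + 1 => newton (iter a n)

lemma iter_bounds (a : MonoidAlgebra A G) {ρ : ℝ} (hρ : 0 ≤ ρ) (hρ' : ρ ≤ 1 / 2)
    (h : 7 * nrm (defect a) ≤ ρ) (hM : 2 * nrm (defect a) * (3 + 2 * nrm a) ≤ 1) (n : ℕ) :
    nrm (defect (iter a n)) ≤ ρ ^ n * nrm (defect a) ∧
    nrm (iter a n - a) ≤ (3 + 2 * nrm a) * nrm (defect a) * (2 - 2 * (1 / 2) ^ n) := by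
  have h0 := nrm_nonneg (defect a)
  have hn := nrm_nonneg a
  induction n with
  | zero => simp [iter]
  | succ n ih =>
    obtain ⟨ih1, ih2⟩ := ih
    have hpow : ρ ^ n ≤ 1 := pow_le_one₀ hρ (by linarith)
    have hpow0 : 0 ≤ ρ ^ n := pow_nonneg hρ n
    have hpow2 : ρ ^ n ≤ (1 / 2) ^ n := pow_le_pow_left₀ hρ hρ' n
    have hle : nrm (defect (iter a n)) ≤ nrm (defect a) := by nlinarith
    have hhalf : (0 : ℝ) < (1 / 2) ^ n := by positivity
    constructor
    · have := nrm_defect_newton_le (iter a n) (ρ := ρ) (by linarith) (by linarith)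
      show nrm (defect (newton (iter a n))) ≤ _
      calc _ ≤ ρ * nrm (defect (iter a n)) := this
        _ ≤ ρ * (ρ ^ n * nrm (defect a)) := by gcongr
        _ = _ := by ring
    · have hb : nrm (iter a n) ≤ nrm a + 1 := by
        have h1 := nrm_add_le (iter a n - a) a
        rw [sub_add_cancel] at h1
        have : (3 + 2 * nrm a) * nrm (defect a) * (2 - 2 * (1 / 2) ^ n) ≤ 1 := by
          have : 0 ≤ (3 + 2 * nrm a) * nrm (defect a) := by positivity
          nlinarith
        linarith
      have h2 := nrm_newton_sub_le (iter a n)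
      have h3 : nrm (newton (iter a n) - a) ≤
          nrm (newton (iter a n) - iter a n) + nrm (iter a n - a) := by
        have := nrm_add_le (newton (iter a n) - iter a n) (iter a n - a)
        rwa [sub_add_sub_cancel] at this
      have h4 : nrm (defect (iter a n)) * (1 + 2 * nrm (iter a n)) ≤
          ((1 / 2) ^ n * nrm (defect a)) * (3 + 2 * nrm a) := by
        have e1 : nrm (defect (iter a n)) ≤ (1 / 2) ^ n * nrm (defect a) := by nlinarith
        have e2 : 1 + 2 * nrm (iter a n) ≤ 3 + 2 * nrm a := by linarith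
        have e3 := nrm_nonneg (iter a n)
        exact mul_le_mul e1 e2 (by linarith) (by positivity)
      show nrm (newton (iter a n) - a) ≤ _
      have h5 : (1 / 2 : ℝ) ^ (n + 1) = (1 / 2) ^ n * (1 / 2) := pow_succ _ _
      rw [h5]
      nlinarith

end Vale.Agent.L1Bass
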